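import Crest.Agent.R241.Meas.Lin

/-!
# Block J: the area formula.  Helper prefix `marea_`.
-/

open MeasureTheory Set Filter Topology Metric
open Crest.GeometryTopology.MetricCurrent
open Crest.GeometryTopology.Submanifold (Euc metricMat relBoundary)
open scoped ENNReal NNReal InnerProductSpace

noncomputable section

namespace Crest.Agent.R241

variable {d N : ℕ} {A : Euc d → Euc d →L[ℝ] Euc N} {F : Euc d → Euc N}

/-- a local inequality between measures is global (`TopologicalSpace.countable_cover_nhds`,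
`disjointed`) -/
theorem measure_le_of_local {μ ν : Measure (Euc d)} {c : ℝ≥0∞}
    (h : ∀ x : Euc d, ∃ W ∈ 𝓝 x, ∀ s ⊆ W, MeasurableSet s → μ s ≤ c * ν s) {s : Set (Euc d)}
    (hs : MeasurableSet s) : μ s ≤ c * ν s := by
  choose W hW hle using h
  obtain ⟨t, ht, hU⟩ := TopologicalSpace.countable_cover_nhds (f := fun x => interior (W x))
    fun x => interior_mem_nhds.2 (hW x)
  have hne : t.Nonempty := by
    obtain ⟨x, hx, -⟩ := mem_iUnion₂.1 (hU.symm ▸ mem_univ (0 : Euc d))
    exact ⟨x, hx⟩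
  obtain ⟨g, rfl⟩ := ht.exists_eq_range hne
  rw [biUnion_range] at hU
  have hm : ∀ n, MeasurableSet (s ∩ disjointed (fun n => interior (W (g n))) n) := fun n =>
    hs.inter (MeasurableSet.disjointed (fun n => isOpen_interior.measurableSet) n)
  have e : s = ⋃ n, s ∩ disjointed (fun n => interior (W (g n))) n := by
    rw [← inter_iUnion, iUnion_disjointed, hU, inter_univ]
  have hd : Pairwise (Function.onFun Disjoint fun n => s ∩ disjointed (fun n => interior (W (g n))) n) :=
    (disjoint_disjointed _).mono fun i j hij => hij.mono inter_subset_right inter_subset_right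
  rw [e, measure_iUnion hd hm, measure_iUnion hd hm, ← ENNReal.tsum_mul_left]
  exact ENNReal.tsum_le_tsum fun n =>
    hle (g n) _ (inter_subset_right.trans ((disjointed_subset _ n).trans interior_subset)) (hm n)

theorem marea_le {a b : ℝ≥0∞} (h : ∀ ε : ℝ, 0 < ε → a ≤ ENNReal.ofReal (1 + ε) * b) : a ≤ b := by
  have h1 : Tendsto (fun ε : ℝ => ENNReal.ofReal (1 + ε)) (𝓝[>] 0) (𝓝 1) :=
    ((ENNReal.continuous_ofReal.comp (continuous_const_add 1)).tendsto' 0 1 (by simp)).mono_left nhdsWithin_le_nhds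
  have h2 := ENNReal.Tendsto.mul_const (b := b) h1 (Or.inl one_ne_zero)
  rw [one_mul] at h2
  exact ge_of_tendsto h2 (eventually_nhdsWithin_of_forall h)

theorem marea_emb (hF : ∀ v, HasFDerivAt F (A v) v) (hinj : Function.Injective F) : MeasurableEmbedding F :=
  (continuous_iff_continuousAt.2 fun v => (hF v).continuousAt).measurableEmbedding hinj

/-- `μ = comap F μHE[d]` (`Continuous.measurableEmbedding`, `MeasurableEmbedding.comap_apply`) and
`ν = volume.withDensity J` satisfy `μ ≤ (1+ε) ν`, `ν ≤ (1+ε) μ` locally (`ExpF.bilip`, `ExpF.unif`,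
`muHE_image_le`, `muHE_linear`); let `ε → 0`. -/
theorem ExpF.muHE (h : ExpF A) (hF : ∀ v, HasFDerivAt F (A v) v) (hinj : Function.Injective F)
    {s : Set (Euc d)} (hs : MeasurableSet s) :
    μHE[d] (F '' s) = ∫⁻ v in s, ENNReal.ofReal (Jm (A v)) := by
  have hemb := marea_emb hF hinj
  rw [← hemb.comap_apply, ← withDensity_apply _ hs]
  have key : ∀ ε > 0, ∀ x : Euc d, ∃ W ∈ 𝓝 x, ∀ s ⊆ W, MeasurableSet s →
      (μHE[d] : Measure (Euc N)).comap F s ≤
        ENNReal.ofReal (1 + ε) * volume.withDensity (fun v => ENNReal.ofReal (Jm (A v))) s ∧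
      volume.withDensity (fun v => ENNReal.ofReal (Jm (A v))) s ≤
        ENNReal.ofReal (1 + ε) * (μHE[d] : Measure (Euc N)).comap F s := fun ε hε x => by
    obtain ⟨η, hη, hp⟩ := exists_pow_le (d + 1) hε
    obtain ⟨δ, hδ, h1⟩ := h.bilip hF ‖x‖ hη
    obtain ⟨δ', hδ', h2⟩ := h.unif ‖x‖ hη
    have hx : x ∈ closedBall (0 : Euc d) ‖x‖ := mem_closedBall_zero_iff.2 le_rfl
    refine ⟨closedBall x δ ∩ closedBall x δ', inter_mem (closedBall_mem_nhds x hδ) (closedBall_mem_nhds x hδ'),
      fun s hsW hs => ?_⟩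
    have h0 : 0 ≤ 1 + η := by positivity
    have a1 := muHE_image_le (f := F) (g := A x) (s := s) h0
      (fun z hz z' hz' => (h1 x hx z (hsW hz).1 z' (hsW hz').1).2) d
    have a2 := muHE_image_le (f := A x) (g := F) (s := s) h0
      (fun z hz z' hz' => (h1 x hx z (hsW hz).1 z' (hsW hz').1).1) d
    rw [muHE_linear, ← setLIntegral_const] at a1 a2
    have a3 : ∫⁻ _ in s, ENNReal.ofReal (Jm (A x)) ≤ ENNReal.ofReal (1 + η) * ∫⁻ v in s, ENNReal.ofReal (Jm (A v)) := by
      rw [← lintegral_const_mul' _ _ ENNReal.ofReal_ne_top]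
      refine setLIntegral_mono' hs fun z hz => ?_
      rw [← ENNReal.ofReal_mul h0]
      exact ENNReal.ofReal_le_ofReal (h2 x hx z (hsW hz).2).2.2.2
    have a4 : ∫⁻ v in s, ENNReal.ofReal (Jm (A v)) ≤ ENNReal.ofReal (1 + η) * ∫⁻ _ in s, ENNReal.ofReal (Jm (A x)) := by
      rw [← lintegral_const_mul' _ _ ENNReal.ofReal_ne_top]
      refine setLIntegral_mono' hs fun z hz => ?_
      rw [← ENNReal.ofReal_mul h0]
      exact ENNReal.ofReal_le_ofReal (h2 x hx z (hsW hz).2).2.2.1
    have a5 : ENNReal.ofReal ((1 + η) ^ d) * ENNReal.ofReal (1 + η) ≤ ENNReal.ofReal (1 + ε) := by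
      rw [← ENNReal.ofReal_mul (pow_nonneg h0 d), ← pow_succ]
      exact ENNReal.ofReal_le_ofReal hp
    rw [hemb.comap_apply, withDensity_apply _ hs]
    constructor
    · exact a1.trans ((mul_le_mul_right a3 _).trans (by rw [← mul_assoc]; exact mul_le_mul_left a5 _))
    · refine a4.trans ((mul_le_mul_right a2 _).trans ?_)
      rw [← mul_assoc, mul_comm (ENNReal.ofReal (1 + η))]
      exact mul_le_mul_left a5 _
  refine le_antisymm (marea_le fun ε hε => measure_le_of_local (fun x => ?_) hs)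
    (marea_le fun ε hε => measure_le_of_local (fun x => ?_) hs)
  · obtain ⟨W, hW, H⟩ := key ε hε x
    exact ⟨W, hW, fun s h1 h2 => (H s h1 h2).1⟩
  · obtain ⟨W, hW, H⟩ := key ε hε x
    exact ⟨W, hW, fun s h1 h2 => (H s h1 h2).2⟩

/-- `J - 1 ≥ 0` is continuous with vanishing integral over the open set -/
theorem ExpF.rigid (h : ExpF A) {s : Set (Euc d)} (hs : IsOpen s) (hfin : volume s ≠ ⊤)
    (hv : ∫⁻ v in s, ENNReal.ofReal (Jm (A v)) = volume s) : ∀ v ∈ s, gramM (A v) = 1 := by
  have hc : Continuous fun v => ENNReal.ofReal (Jm (A v)) := ENNReal.continuous_ofReal.comp h.continuous_Jm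
  have h1 : (fun _ => (1 : ℝ≥0∞)) =ᵐ[volume.restrict s] fun v => ENNReal.ofReal (Jm (A v)) :=
    ae_eq_of_ae_le_of_lintegral_le (Eventually.of_forall fun v => ENNReal.one_le_ofReal.2 (h.one_le v))
      (by rwa [setLIntegral_one]) hc.measurable.aemeasurable (by rw [hv, setLIntegral_one])
  intro v hv'
  exact gramM_eq_one (h.expand v) (ENNReal.ofReal_eq_one.1
    (Measure.eqOn_open_of_ae_eq h1 hs continuousOn_const hc.continuousOn hv').symm)

/-- the pull-back of `μHE[n]` restricted to the frontier (`ExpF.bilip`, `muHE_image_le`) -/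
theorem ExpF.bounds {n : ℕ} {A : Euc (n + 1) → Euc (n + 1) →L[ℝ] Euc N} {F : Euc (n + 1) → Euc N}
    (h : ExpF A) (hF : ∀ v, HasFDerivAt F (A v) v) (hinj : Function.Injective F)
    (U : Set (Euc (n + 1))) :
    ∃ lam : Measure (Euc (n + 1)), lam univ = μHE[n] (F '' frontier U) ∧
      ∀ R, Bounds A R U lam := by
  have hemb := marea_emb hF hinj
  refine ⟨((μHE[n] : Measure (Euc N)).comap F).restrict (frontier U), ?_, fun R ε hε => ?_⟩
  · rw [Measure.restrict_apply_univ, hemb.comap_apply]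
  obtain ⟨η, hη, hp⟩ := exists_pow_le n hε
  obtain ⟨δ, hδ, h1⟩ := h.bilip hF R hη
  refine ⟨δ, hδ, fun x hx ρ hρ => ?_⟩
  rw [Measure.restrict_apply measurableSet_closedBall, hemb.comap_apply, inter_comm]
  exact (muHE_image_le (f := A x) (g := F) (by positivity) (fun z hz z' hz' => (h1 x hx z
    (closedBall_subset_closedBall hρ hz.1) z' (closedBall_subset_closedBall hρ hz'.1)).1) n).trans
    (mul_le_mul_left (ENNReal.ofReal_le_ofReal hp) _)

end Crest.Agent.R241
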