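import Crest.Agent.R241.Meas.Sweep

/-!
# Block J: averages of the indicator of `U` over balls.  Helper prefix `mavg_`.
-/

open MeasureTheory Set Filter Topology Metric
open Crest.GeometryTopology.MetricCurrent
open Crest.GeometryTopology.Submanifold (Euc metricMat relBoundary)
open scoped ENNReal NNReal InnerProductSpace

noncomputable section

namespace Crest.Agent.R241

variable {d n N : ℕ}

theorem avg_mem (U : Set (Euc d)) (r : ℝ) (x : Euc d) : avg U r x ∈ Icc (0 : ℝ) 1 := by
  refine ⟨div_nonneg measureReal_nonneg measureReal_nonneg, div_le_one_of_le₀ ?_ measureReal_nonneg⟩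
  rw [← Measure.addHaar_real_ball_center volume x r]
  exact measureReal_mono inter_subset_right measure_ball_lt_top.ne

theorem avg_eq_one {U : Set (Euc d)} {r : ℝ} (hr : 0 < r) {x : Euc d} (h : ball x r ⊆ U) :
    avg U r x = 1 := by
  rw [avg, inter_eq_right.2 h, Measure.addHaar_real_ball_center volume x r]
  exact div_self (ENNReal.toReal_pos (measure_ball_pos volume _ hr).ne' measure_ball_lt_top.ne).ne'

theorem avg_eq_zero {U : Set (Euc d)} {r : ℝ} {x : Euc d} (h : Disjoint (ball x r) U) :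
    avg U r x = 0 := by
  rw [avg, h.symm.inter_eq, measureReal_empty, zero_div]

theorem mavg_fin (C : Set (Euc d)) (x w : Euc d) (r : ℝ) : volume (sweep (C ∩ closedBall x r) w) ≠ ⊤ := by
  refine ((measure_mono ?_).trans_lt (measure_closedBall_lt_top (x := x) (r := ‖w‖ + r))).ne
  rintro _ ⟨y, hy, s, hs, rfl⟩
  refine (dist_triangle _ y _).trans (add_le_add ?_ hy.2)
  rw [dist_self_add_left, norm_smul, Real.norm_of_nonneg hs.1]
  exact mul_le_of_le_one_left (norm_nonneg _) hs.2

theorem mavg_seg {U : Set (Euc d)} {r : ℝ} {x w y : Euc d} (hy : y ∈ ball x r) (h : ¬(y ∈ U ↔ y + w ∈ U)) :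
    y ∈ sweep (frontier U ∩ closedBall x (r + ‖w‖)) (-w) := by
  by_contra hn
  have hc : IsPreconnected ((fun s : ℝ => y + s • w) '' Icc 0 1) :=
    isPreconnected_Icc.image _ (by fun_prop)
  have h0 : y ∈ (fun s : ℝ => y + s • w) '' Icc 0 1 := ⟨0, left_mem_Icc.2 zero_le_one, by simp⟩
  have h1 : y + w ∈ (fun s : ℝ => y + s • w) '' Icc 0 1 := ⟨1, right_mem_Icc.2 zero_le_one, by simp⟩
  rcases hc.subset_or_subset isOpen_interior isOpen_interior
    (disjoint_compl_right.mono interior_subset interior_subset : Disjoint (interior U) (interior Uᶜ)) (by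
      rw [← compl_frontier_eq_union_interior]
      rintro _ ⟨s, hs, rfl⟩ hf
      refine hn ⟨_, ⟨hf, (dist_triangle _ y _).trans ((add_le_add ?_ (mem_ball.1 hy).le).trans_eq
        (add_comm _ _))⟩, s, hs, by simp⟩
      rw [dist_self_add_left, norm_smul, Real.norm_of_nonneg hs.1]
      exact mul_le_of_le_one_left (norm_nonneg _) hs.2) with e | e
  · exact h (iff_of_true (interior_subset (e h0)) (interior_subset (e h1)))
  · exact h (iff_of_false (interior_subset (e h0)) (interior_subset (e h1)))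

/-- translate by `w`: the sets `{y ∈ ball x r | y + w ∈ U}` and `U ∩ ball x r` differ only at points
`y` such that the segment from `y` to `y + w` meets the frontier of `U` -/
theorem abs_avg_sub_le (U : Set (Euc d)) {r : ℝ} (hr : 0 < r) (x w : Euc d) :
    |avg U r (x + w) - avg U r x| ≤ volume.real (sweep (frontier U ∩ closedBall x (r + ‖w‖)) (-w))
      / volume.real (ball (0 : Euc d) r) := by
  have e : volume.real (U ∩ ball (x + w) r) = volume.real ((fun y => y + w) ⁻¹' U ∩ ball x r) := by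
    rw [Measure.real, ← measure_preimage_add_right volume w, preimage_inter, preimage_add_right_ball,
      add_sub_cancel_right, Measure.real]
  have h1 : ∀ {A B : Set (Euc d)}, (∀ y ∈ A, y ∉ B → ¬(y ∈ U ↔ y + w ∈ U)) →
      volume.real (A ∩ ball x r) - volume.real (B ∩ ball x r) ≤
        volume.real (sweep (frontier U ∩ closedBall x (r + ‖w‖)) (-w)) := fun {A B} h => by
    rw [sub_le_iff_le_add']
    refine (measureReal_mono (fun y hy => ?_) (measure_union_ne_top
      ((measure_mono inter_subset_right).trans_lt measure_ball_lt_top).ne (mavg_fin _ _ _ _))).trans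
      (measureReal_union_le _ _)
    by_cases hB : y ∈ B
    · exact Or.inl ⟨hB, hy.2⟩
    · exact Or.inr (mavg_seg hy.2 (h y hy.1 hB))
  rw [avg, avg, ← sub_div, abs_div, abs_of_nonneg measureReal_nonneg, e]
  exact div_le_div_of_nonneg_right (abs_sub_le_iff.2 ⟨h1 fun y h h' e => h' (e.2 h),
    h1 fun y h h' e => h' (e.1 h)⟩) measureReal_nonneg

/-- `abs_avg_sub_le`, `Jm_sweep_le`, `Bounds` (take half of its `δ`) -/
theorem Bounds.avg_sub {A : Euc (n + 1) → Euc (n + 1) →L[ℝ] Euc N} (hA : ExpF A) {R : ℝ}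
    {U : Set (Euc (n + 1))} {lam : Measure (Euc (n + 1))} [IsFiniteMeasure lam]
    (h : Bounds A R U lam) {ε : ℝ} (hε : 0 < ε) :
    ∃ δ > 0, ∀ r ∈ Ioc 0 δ, ∀ x ∈ closedBall (0 : Euc (n + 1)) R, ∀ w, ‖w‖ ≤ δ →
      Jm (A x) * |avg U r (x + w) - avg U r x| ≤ (1 + ε) * ‖A x w‖ *
        (lam.real (closedBall x (r + ‖w‖)) / volume.real (ball (0 : Euc (n + 1)) r)) := by
  obtain ⟨δ, hδ, H⟩ := h ε hε
  refine ⟨δ / 2, half_pos hδ, fun r hr x hx w hw => ?_⟩
  rcases eq_or_ne w 0 with rfl | h0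
  · simp
  have h1 := (Jm_sweep_le (hA.expand x) _ (neg_ne_zero.2 h0)).trans
    (mul_le_mul_right (H x hx (r + ‖w‖) (by linarith [hr.2])) _)
  have h2 := ENNReal.toReal_mono (by finiteness) h1
  rw [ENNReal.toReal_mul, ENNReal.toReal_mul, ENNReal.toReal_mul, ENNReal.toReal_ofReal (Jm_nonneg _),
    ENNReal.toReal_ofReal (by positivity), toReal_enorm, map_neg, norm_neg] at h2
  refine (mul_le_mul_of_nonneg_left (abs_avg_sub_le U hr.1 x w) (Jm_nonneg _)).trans ?_
  rw [← mul_div_assoc, ← mul_div_assoc]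
  exact div_le_div_of_nonneg_right (h2.trans_eq (by rw [Measure.real]; ring)) measureReal_nonneg

theorem mavgb_div (a : ℝ≥0∞) (ha : a ≠ ⊤) {r : ℝ} (hr : 0 < r) :
    ENNReal.ofReal (a.toReal / volume.real (ball (0 : Euc d) r)) = a * (volume (ball (0 : Euc d) r))⁻¹ := by
  have h0 : volume (ball (0 : Euc d) r) ≠ 0 := (measure_ball_pos _ _ hr).ne'
  have h1 : volume (ball (0 : Euc d) r) ≠ ⊤ := measure_ball_lt_top.ne
  rw [Measure.real, ENNReal.ofReal_div_of_pos (ENNReal.toReal_pos h0 h1), ENNReal.ofReal_toReal ha,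
    ENNReal.ofReal_toReal h1, div_eq_mul_inv]

theorem mavgb_swap (μ ν : Measure (Euc d)) [SFinite μ] [SFinite ν] {F : Euc d × Euc d → ℝ≥0∞}
    (hF : Measurable F) : ∫⁻ x, ∫⁻ y, F (x, y) ∂ν ∂μ = ∫⁻ y, ∫⁻ x, F (x, y) ∂μ ∂ν :=
  lintegral_lintegral_swap (f := fun x y => F (x, y)) hF.aemeasurable

/-- Tonelli -/
theorem lintegral_lam_ball (lam : Measure (Euc (n + 1))) [IsFiniteMeasure lam] {r : ℝ}
    (hr : 0 < r) :
    ∫⁻ x, ENNReal.ofReal (lam.real (closedBall x r) / volume.real (ball (0 : Euc (n + 1)) r))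
      = lam univ := by
  have h0 : volume (ball (0 : Euc (n + 1)) r) ≠ 0 := (measure_ball_pos _ _ hr).ne'
  have h1 : volume (ball (0 : Euc (n + 1)) r) ≠ ⊤ := measure_ball_lt_top.ne
  have hS : MeasurableSet {p : Euc (n + 1) × Euc (n + 1) | dist p.2 p.1 ≤ r} :=
    (isClosed_le (by fun_prop) continuous_const).measurableSet
  have e1 : ∀ x, lam (closedBall x r) =
      ∫⁻ y, {p : Euc (n + 1) × Euc (n + 1) | dist p.2 p.1 ≤ r}.indicator 1 (x, y) ∂lam := fun x => by
    rw [← lintegral_indicator_one measurableSet_closedBall]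
    rfl
  have e2 : ∀ y, ∫⁻ x, {p : Euc (n + 1) × Euc (n + 1) | dist p.2 p.1 ≤ r}.indicator 1 (x, y) =
      volume (ball (0 : Euc (n + 1)) r) := fun y => by
    rw [← Measure.addHaar_ball_center volume y r, ← Measure.addHaar_closedBall_eq_addHaar_ball,
      ← lintegral_indicator_one measurableSet_closedBall]
    refine lintegral_congr fun x => ?_
    simp only [indicator, mem_ofPred_eq, mem_closedBall, dist_comm, Pi.one_apply]
  simp only [Measure.real.eq_1 lam, mavgb_div _ (measure_ne_top lam _) hr]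
  rw [lintegral_mul_const' _ _ (ENNReal.inv_ne_top.2 h0)]
  simp only [e1]
  rw [mavgb_swap _ _ (measurable_one.indicator hS)]
  simp only [e2, lintegral_const]
  rw [mul_right_comm, ENNReal.mul_inv_cancel h0 h1, one_mul]

/-- Tonelli -/
theorem lintegral_mul_avg_le {U D D' : Set (Euc d)} (hU : MeasurableSet U) (hD : MeasurableSet D)
    (hD' : MeasurableSet D') {J : Euc d → ℝ} (hJ : Continuous J) (hJ0 : ∀ x, 0 ≤ J x) {r : ℝ}
    (hr : 0 < r) (h : ∀ x ∈ D, ∀ y ∈ ball x r, y ∈ D' ∧ J x ≤ 2 * J y) :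
    ∫⁻ x in D, ENNReal.ofReal (J x * avg U r x) ≤ 2 * ∫⁻ y in U ∩ D', ENNReal.ofReal (J y) := by
  have h0 : volume (ball (0 : Euc d) r) ≠ 0 := (measure_ball_pos _ _ hr).ne'
  have h1 : volume (ball (0 : Euc d) r) ≠ ⊤ := measure_ball_lt_top.ne
  have hS : MeasurableSet {p : Euc d × Euc d | dist p.2 p.1 < r} :=
    (isOpen_lt (by fun_prop) continuous_const).measurableSet
  have hm : Measurable ({p : Euc d × Euc d | dist p.2 p.1 < r}.indicator
      fun p => 2 * ENNReal.ofReal (J p.2)) :=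
    Measurable.indicator ((hJ.measurable.comp measurable_snd).ennreal_ofReal.const_mul 2) hS
  calc ∫⁻ x in D, ENNReal.ofReal (J x * avg U r x)
      ≤ ∫⁻ x in D, (∫⁻ y in U ∩ D', {p : Euc d × Euc d | dist p.2 p.1 < r}.indicator
          (fun p => 2 * ENNReal.ofReal (J p.2)) (x, y)) * (volume (ball (0 : Euc d) r))⁻¹ := by
        refine setLIntegral_mono' hD fun x hx => ?_
        rw [ENNReal.ofReal_mul (hJ0 x), avg, Measure.real.eq_1 _ (U ∩ ball x r), mavgb_div _
          ((measure_mono inter_subset_right).trans_lt measure_ball_lt_top).ne hr, ← mul_assoc]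
        refine mul_le_mul_left ?_ _
        rw [← setLIntegral_const]
        refine (setLIntegral_mono' (hU.inter measurableSet_ball) fun y hy => ?_).trans
          (lintegral_mono_set fun y hy => ⟨hy.1, (h x hx y hy.2).1⟩)
        rw [indicator_of_mem (show (x, y) ∈ {p : Euc d × Euc d | dist p.2 p.1 < r} from hy.2),
          ← ENNReal.ofReal_ofNat, ← ENNReal.ofReal_mul zero_le_two]
        exact ENNReal.ofReal_le_ofReal (h x hx y hy.2).2
    _ = (∫⁻ y in U ∩ D', ∫⁻ x in D, {p : Euc d × Euc d | dist p.2 p.1 < r}.indicator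
          (fun p => 2 * ENNReal.ofReal (J p.2)) (x, y)) * (volume (ball (0 : Euc d) r))⁻¹ := by
        rw [lintegral_mul_const' _ _ (ENNReal.inv_ne_top.2 h0), mavgb_swap _ _ hm]
    _ ≤ (∫⁻ y in U ∩ D', 2 * ENNReal.ofReal (J y) * volume (ball (0 : Euc d) r)) *
          (volume (ball (0 : Euc d) r))⁻¹ := by
        refine mul_le_mul_left (lintegral_mono fun y => (setLIntegral_le_lintegral _ _).trans_eq ?_) _
        rw [← Measure.addHaar_ball_center volume y r, ← setLIntegral_const,
          ← lintegral_indicator measurableSet_ball]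
        refine lintegral_congr fun x => ?_
        simp only [indicator, mem_ofPred_eq, mem_ball, dist_comm]
    _ = 2 * ∫⁻ y in U ∩ D', ENNReal.ofReal (J y) := by
        rw [lintegral_mul_const' _ _ h1, mul_assoc, ENNReal.mul_inv_cancel h0 h1, mul_one,
          lintegral_const_mul' _ _ ENNReal.ofNat_ne_top]

/-- difference quotients (if `g` is not differentiable at `z` the derivative is `0`) -/
theorem abs_fderiv_le {g : Euc d → ℝ} {z w : Euc d} {a C : ℝ} {c : ℝ → ℝ} (ha : 0 ≤ a)
    (hC : 0 ≤ C) (hc : Tendsto c (𝓝[>] 0) (𝓝 C))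
    (h : ∀ᶠ t in 𝓝[>] (0 : ℝ), a * |g (z + t • w) - g z| ≤ t * c t) :
    a * |fderiv ℝ g z w| ≤ C := by
  by_cases hd : DifferentiableAt ℝ g z
  · have h1 : HasLineDerivAt ℝ g (fderiv ℝ g z w) z w := hd.hasFDerivAt.hasLineDerivAt w
    refine le_of_tendsto_of_tendsto (h1.tendsto_slope_zero_right.abs.const_mul a) hc ?_
    filter_upwards [h, self_mem_nhdsWithin] with t h2 ht
    have ht' : 0 < t := ht
    rw [smul_eq_mul, abs_mul, abs_of_pos (inv_pos.2 ht'), mul_left_comm, inv_mul_le_iff₀ ht']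
    exact h2
  · simpa [fderiv_zero_of_not_differentiableAt hd] using hC

end Crest.Agent.R241
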