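import Crest.Agent.R241.Meas.Lin

/-!
# Block J: the ball chart; primitives; the constancy lemma.  Helper prefix `mbc_`.
-/

open MeasureTheory Set Filter Topology Metric
open Crest.GeometryTopology.MetricCurrent
open Crest.GeometryTopology.Submanifold (Euc metricMat relBoundary)
open scoped ENNReal NNReal InnerProductSpace

noncomputable section

namespace Crest.Agent.R241

variable {d n N : ℕ}

section chart

variable {σ : ℝ} {S : Set (Euc N)} {X : Type} [MetricSpace X] {j : X → Euc N} {x₀ : X}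
  {e : Euc d ≃ₜ X}

theorem Chart.hasFDerivAt (h : Chart j x₀ e) (v : Euc d) :
    HasFDerivAt (j ∘ e) (fderiv ℝ (j ∘ e) v) v :=
  (h.smooth.differentiable (by simp) v).hasFDerivAt

theorem Chart.expF (h : Chart j x₀ e) : ExpF (fderiv ℝ (j ∘ e)) := by
  exact ⟨(h.smooth.fderiv_right (m := (⊤ : ℕ∞)) (by exact_mod_cast le_top)).of_le (by exact_mod_cast le_top),
    h.expand⟩

theorem mbc_ret {R : ℝ} (hR : 0 < R) : ∃ ρ : Euc d → Euc d, LipschitzWith 2 ρ ∧ (∀ z, ‖ρ z‖ ≤ R) ∧
    (∀ z, ‖z‖ ≤ R → ρ z = z) ∧ ∀ z, R ≤ ‖z‖ → ‖ρ z‖ = R := by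
  have hm : ∀ z : Euc d, 0 < max R ‖z‖ := fun z => hR.trans_le (le_max_left _ _)
  have hn : ∀ z : Euc d, ‖(R / max R ‖z‖) • z‖ = R * (‖z‖ / max R ‖z‖) := fun z => by
    rw [norm_smul, Real.norm_of_nonneg (div_pos hR (hm z)).le]; ring
  refine ⟨fun z => (R / max R ‖z‖) • z, LipschitzWith.of_dist_le_mul fun z z' => ?_, fun z => ?_,
    fun z hz => ?_, fun z hz => ?_⟩
  · have e : (R / max R ‖z‖) • z - (R / max R ‖z'‖) • z' = (R / max R ‖z‖) • (z - z') +
        ((R / max R ‖z‖) * ((max R ‖z'‖ - max R ‖z‖) * (max R ‖z'‖)⁻¹)) • z' := by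
      have : (R / max R ‖z‖) * ((max R ‖z'‖ - max R ‖z‖) * (max R ‖z'‖)⁻¹) =
          R / max R ‖z‖ - R / max R ‖z'‖ := by
        have := (hm z).ne'
        have := (hm z').ne'
        field_simp
      rw [this, smul_sub, sub_smul]; abel
    have h1 : ‖R / max R ‖z‖‖ ≤ 1 := by
      rw [Real.norm_of_nonneg (div_pos hR (hm z)).le]
      exact (div_le_one (hm z)).2 (le_max_left _ _)
    have h2 : ‖max R ‖z'‖ - max R ‖z‖‖ ≤ ‖z - z'‖ := by
      rw [max_comm R, max_comm R, norm_sub_rev z]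
      exact (abs_max_sub_max_le_abs _ _ _).trans (abs_norm_sub_norm_le _ _)
    have h3 : ‖(max R ‖z'‖)⁻¹‖ * ‖z'‖ ≤ 1 := by
      rw [Real.norm_of_nonneg (inv_pos.2 (hm z')).le, inv_mul_le_iff₀ (hm z'), mul_one]
      exact le_max_right _ _
    rw [dist_eq_norm, dist_eq_norm, e]
    refine (norm_add_le _ _).trans ?_
    rw [norm_smul, norm_smul, norm_mul, norm_mul, mul_assoc, mul_assoc]
    have h4 := mul_le_of_le_one_left (norm_nonneg (z - z')) h1
    have h5 := mul_le_mul h1 (mul_le_mul h2 h3 (by positivity) (norm_nonneg _)) (by positivity) zero_le_one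
    push_cast
    linarith
  · rw [hn]
    exact mul_le_of_le_one_right hR.le ((div_le_one (hm z)).2 (le_max_right _ _))
  · simp only [max_eq_left hz, div_self hR.ne', one_smul]
  · rw [hn, max_eq_right hz, div_self (hR.trans_le hz).ne', mul_one]

theorem mbc_loc (h : Chart j x₀ e) (v : Euc d) {ε : ℝ} (hε : 0 < ε) : ∃ t ∈ 𝓝 v, ∀ z ∈ t, ∀ z' ∈ t,
    |dist (e z) (e z') - ‖fderiv ℝ (j ∘ e) v (z - z')‖| ≤ ε * ‖z - z'‖ := by
  have := h.loc v ε hε
  rw [nhds_prod_eq] at this
  exact (eventually_prod_self_iff (r := fun z z' =>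
    |dist (e z) (e z') - ‖fderiv ℝ (j ∘ e) v (z - z')‖| ≤ ε * ‖z - z'‖)).1 this

/-- `p z = e ((R / max R ‖z‖) • z)` (the radial retraction is 2-Lipschitz), `q = e.symm`; `e` and
`e.symm` are locally Lipschitz by `loc` and `expand`, hence Lipschitz on compact sets
(`LocallyLipschitzOn.exists_lipschitzOnWith_of_compact`) -/
theorem Chart.exists_BC (G : Geo σ d S X j) (h : Chart j x₀ e) {R : ℝ} (hR : 0 < R) :
    ∃ p : Euc d → closedBall x₀ R, BC (fderiv ℝ (j ∘ e)) R p fun y => e.symm y := by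
  have := G.proper
  obtain ⟨ρ, hρ, h1, h2, h3⟩ := mbc_ret (d := d) hR
  have l1 : LocallyLipschitz e := fun v => by
    obtain ⟨t, ht, hh⟩ := mbc_loc h v one_pos
    refine ⟨‖fderiv ℝ (j ∘ e) v‖₊ + 1, t, ht, LipschitzOnWith.of_dist_le_mul fun z hz z' hz' => ?_⟩
    have a1 := (abs_le.1 (hh z hz z' hz')).2
    have a2 := (fderiv ℝ (j ∘ e) v).le_opNorm (z - z')
    rw [dist_eq_norm z]
    push_cast
    linarith
  have l2 : LocallyLipschitz e.symm := fun y => by
    obtain ⟨t, ht, hh⟩ := mbc_loc h (e.symm y) one_half_pos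
    refine ⟨2, e.symm ⁻¹' t, e.symm.continuous.continuousAt.preimage_mem_nhds ht,
      LipschitzOnWith.of_dist_le_mul fun z hz z' hz' => ?_⟩
    have a1 := (abs_le.1 (hh _ hz _ hz')).1
    have a2 := h.expand (e.symm y) (e.symm z - e.symm z')
    rw [e.apply_symm_apply, e.apply_symm_apply] at a1
    rw [dist_eq_norm (e.symm z)]
    push_cast
    linarith
  obtain ⟨L₁, hL₁⟩ := l1.locallyLipschitzOn.exists_lipschitzOnWith_of_compact
    (isCompact_closedBall (0 : Euc d) R)
  obtain ⟨L₂, hL₂⟩ := l2.locallyLipschitzOn.exists_lipschitzOnWith_of_compact (isCompact_closedBall x₀ R)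
  have hq : ∀ y : closedBall x₀ R, ‖e.symm y‖ ≤ R := fun y => by
    rw [← h.dist_eq, e.apply_symm_apply]; exact y.2
  refine ⟨fun z => ⟨e (ρ z), by rw [mem_closedBall, h.dist_eq]; exact h1 z⟩, h.expF, ⟨L₁ * 2, fun z z' => ?_⟩,
    ⟨L₂, hL₂.to_restrict⟩, fun z hz => ?_, fun y => Subtype.ext ?_, fun y => mem_closedBall_zero_iff.2 (hq y),
    fun z hz => ?_, fun v _ ε hε => ?_⟩
  · exact (lipschitzOnWith_univ.1 (hL₁.comp hρ.lipschitzOnWith fun z _ => mem_closedBall_zero_iff.2 (h1 z))) z z'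
  · simp only [e.symm_apply_apply, h2 z (mem_closedBall_zero_iff.1 hz)]
  · simp only [h2 _ (hq y), e.apply_symm_apply]
  · simp only [e.symm_apply_apply, h3 z hz]
  · obtain ⟨t, ht, hh⟩ := mbc_loc h v hε
    obtain ⟨δ, hδ, hb⟩ := Metric.mem_nhds_iff.1 ht
    refine ⟨δ, hδ, fun z hz z' hz' => ?_⟩
    simp only [Subtype.dist_eq, h2 z (mem_closedBall_zero_iff.1 hz.1), h2 z' (mem_closedBall_zero_iff.1 hz'.1)]
    exact hh z (hb hz.2) z' (hb hz'.2)

end chart

theorem mbc_param {B : Type} [NormedAddCommGroup B] [NormedSpace ℝ B] [ProperSpace B] {F : ℝ × B → ℝ}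
    (hF : ContDiff ℝ 1 F) : ContDiff ℝ 1 fun w => ∫ s in (0 : ℝ)..1, F (s, w) := by
  have hc' : Continuous fun p : ℝ × B => (fderiv ℝ F p).comp (ContinuousLinearMap.inr ℝ ℝ B) :=
    (hF.continuous_fderiv (by simp)).clm_comp continuous_const
  refine contDiff_one_iff_hasFDerivAt.2
    ⟨fun v => ∫ s in (0 : ℝ)..1, (fderiv ℝ F (s, v)).comp (ContinuousLinearMap.inr ℝ ℝ B),
      intervalIntegral.continuous_parametric_intervalIntegral_of_continuous'
        (f := fun v s => (fderiv ℝ F (s, v)).comp (ContinuousLinearMap.inr ℝ ℝ B))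
        (hc'.comp continuous_swap) _ _, fun v => ?_⟩
  obtain ⟨C, hC⟩ := ((isCompact_uIcc (a := (0 : ℝ)) (b := 1)).prod
    (isCompact_closedBall v 1)).exists_bound_of_continuousOn hc'.continuousOn
  refine intervalIntegral.hasFDerivAt_integral_of_dominated_of_fderiv_le (F := fun w s => F (s, w))
    (F' := fun w s => (fderiv ℝ F (s, w)).comp (ContinuousLinearMap.inr ℝ ℝ B))
    (bound := fun _ => C) (Metric.closedBall_mem_nhds v one_pos) ?_ ?_ ?_ ?_ ?_ ?_
  · exact Eventually.of_forall fun w =>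
      (hF.continuous.comp (by fun_prop : Continuous fun s : ℝ => (s, w))).aestronglyMeasurable
  · exact (hF.continuous.comp (by fun_prop : Continuous fun s : ℝ => (s, v))).intervalIntegrable _ _
  · exact (hc'.comp (by fun_prop : Continuous fun s : ℝ => (s, v))).aestronglyMeasurable
  · exact Eventually.of_forall fun s hs w hw => hC (s, w) ⟨Set.uIoc_subset_uIcc hs, hw⟩
  · exact intervalIntegrable_const
  · exact Eventually.of_forall fun s _ w _ =>
      (hF.differentiable (by simp) (s, w)).hasFDerivAt.comp w (hasFDerivAt_prodMk_right s w)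

theorem mbc_det (l : Euc (n + 1) →L[ℝ] ℝ) :
    (ContinuousLinearMap.id ℝ (Euc (n + 1)) + l.smulRight (EuclideanSpace.single 0 1)).det =
      1 + l (EuclideanSpace.single 0 1) := by
  rw [ContinuousLinearMap.det, ← LinearMap.det_toMatrix (EuclideanSpace.basisFun (Fin (n + 1)) ℝ).toBasis,
    Matrix.det_of_isUpperTriangular, Fin.prod_univ_succ]
  · simp [LinearMap.toMatrix_apply]
  · intro i j hij
    have h1 : i ≠ j := (ne_of_lt hij).symm
    have h2 : i ≠ 0 := Fin.ne_zero_of_lt hij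
    simp [LinearMap.toMatrix_apply, h1, h2]

/-- `Φ z = (P z, z₁, …, z_n)` with `P z = ∫₀^{z₀} J (s, z₁, …) ds = ∫₀¹ z₀ J (s z₀, z₁, …) ds` -/
theorem exists_prim {J : Euc (n + 1) → ℝ} (hJ : ContDiff ℝ 1 J) :
    ∃ Φ : Euc (n + 1) → Euc (n + 1), ContDiff ℝ 1 Φ ∧ ∀ z, (fderiv ℝ Φ z).det = J z := by
  set e0 : Euc (n + 1) := EuclideanSpace.single 0 1 with he0
  have c0 : ContDiff ℝ 1 fun z : Euc (n + 1) => z 0 := (EuclideanSpace.proj (𝕜 := ℝ) (0 : Fin (n + 1))).contDiff
  have h1 : ContDiff ℝ 1 fun p : ℝ × Euc (n + 1) => J (p.2 + (p.2 0 * p.1 - p.2 0) • e0) :=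
    hJ.comp (contDiff_snd.add ((((c0.comp contDiff_snd).mul contDiff_fst).sub
      (c0.comp contDiff_snd)).smul contDiff_const))
  have h3 : ContDiff ℝ 1 fun z : Euc (n + 1) => ∫ s in (0 : ℝ)..z 0, J (z + (s - z 0) • e0) := by
    convert c0.smul (mbc_param h1) using 1
    funext w
    have := intervalIntegral.smul_integral_comp_mul_left (a := 0) (b := 1)
      (fun s : ℝ => J (w + (s - w 0) • e0)) (w 0)
    rw [mul_zero, mul_one] at this
    exact this.symm
  set P : Euc (n + 1) → ℝ := fun z => ∫ s in (0 : ℝ)..z 0, J (z + (s - z 0) • e0) with hP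
  have h4 : ∀ w, fderiv ℝ P w e0 = J w := fun w => by
    have a1 : HasDerivAt (fun t : ℝ => w + t • e0) e0 0 := by
      simpa using ((hasDerivAt_id (0 : ℝ)).smul_const e0).const_add w
    have a2 := (h3.differentiable (by simp) (w + (0 : ℝ) • e0)).hasFDerivAt.comp_hasDerivAt (0 : ℝ) a1
    have hc : Continuous fun s : ℝ => J (w + (s - w 0) • e0) := hJ.continuous.comp (by fun_prop)
    have a3 : HasDerivAt (fun u : ℝ => ∫ s in (0 : ℝ)..u, J (w + (s - w 0) • e0))
        (J (w + (w 0 + 0 - w 0) • e0)) (w 0 + 0) :=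
      intervalIntegral.integral_hasDerivAt_right (hc.intervalIntegrable _ _)
        (hc.stronglyMeasurableAtFilter _ _) hc.continuousAt
    have a4 := a2.unique ((a3.comp_const_add (w 0) 0).congr_of_eventuallyEq (Eventually.of_forall fun t => by
      have e : (w + t • e0) 0 = w 0 + t := by simp [he0]
      simp only [Function.comp_apply, hP, e]
      refine intervalIntegral.integral_congr fun s _ => ?_
      congr 1
      module))
    simpa using a4
  refine ⟨fun z => z + (P z - z 0) • e0, contDiff_id.add ((h3.sub c0).smul contDiff_const), fun z => ?_⟩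
  have h5 := (hasFDerivAt_id z).add ((((h3.differentiable (by simp) z).hasFDerivAt).sub
    (EuclideanSpace.proj (𝕜 := ℝ) (0 : Fin (n + 1))).hasFDerivAt).smul_const e0)
  rw [HasFDerivAt.fderiv (f := fun z => z + (P z - z 0) • e0) h5, mbc_det]
  have e1 : e0 0 = 1 := by simp [he0]
  simp [← he0, h4, e1]

/-- Let `ball z₀ (2 δ) ⊆ O` and suppose `x ∈ U`, `x' ∉ closure U` both lie in `ball z₀ δ`.  Take a
bump `k` (`ContDiffBump 0`) of small radius, `w = x' - x`; FTC and Fubini give
`∫_U k (z - x') - ∫_U k (z - x) = - ∫₀¹ ∫_U Dk (z - x - s w) w dz ds = 0`, but the first integral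
vanishes and the second is `∫ k > 0`. -/
theorem subset_interior_of_weak {U O : Set (Euc d)} (hU : IsOpen U) (hO : IsOpen O)
    (h : ∀ ψ : Euc d → ℝ, ContDiff ℝ 1 ψ → HasCompactSupport ψ → tsupport ψ ⊆ O →
      ∀ w, ∫ z in U, fderiv ℝ ψ z w = 0) : O ⊆ interior (closure U) ∪ (closure U)ᶜ := by
  intro z₀ hz₀
  by_contra hcon
  simp only [mem_union, mem_compl_iff, not_or, not_not] at hcon
  obtain ⟨δ, hδ, hB⟩ := Metric.isOpen_iff.1 hO z₀ hz₀
  have hδ2 : 0 < δ / 2 := half_pos hδ
  obtain ⟨x, hx, hxU⟩ := mem_closure_iff.1 hcon.2 _ isOpen_ball (mem_ball_self hδ2)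
  obtain ⟨x', hx', hx'U⟩ : ∃ x' ∈ ball z₀ (δ / 2), x' ∉ closure U := by
    by_contra hn
    push Not at hn
    exact hcon.1 (interior_maximal hn isOpen_ball (mem_ball_self hδ2))
  obtain ⟨r₁, hr₁, h₁⟩ := Metric.isOpen_iff.1 hU x hxU
  obtain ⟨r₂, hr₂, h₂⟩ := Metric.isOpen_iff.1 isClosed_closure.isOpen_compl x' hx'U
  obtain ⟨r, hr, hr0, hr1, hr2⟩ : ∃ r : ℝ, 0 < r ∧ r ≤ δ / 2 ∧ r ≤ r₁ ∧ r ≤ r₂ :=
    ⟨min (δ / 2) (min r₁ r₂), by positivity, min_le_left _ _,
      (min_le_right _ _).trans (min_le_left _ _), (min_le_right _ _).trans (min_le_right _ _)⟩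
  let k : ContDiffBump (0 : Euc d) := ⟨r / 2, r, half_pos hr, half_lt_self hr⟩
  have hk : ContDiff ℝ 1 k := k.contDiff
  have hk0 : ∀ y t : Euc d, t ∉ ball y r → k (y - t) = 0 := fun y t ht =>
    k.zero_of_le_dist (by rwa [dist_zero_right, ← dist_eq_norm, dist_comm, ← not_lt])
  have hf : LocallyIntegrable (U.indicator fun _ => (1 : ℝ)) volume :=
    (locallyIntegrable_const 1).indicator hU.measurableSet
  have conv : ∀ (g : Euc d → ℝ) (y : Euc d),
      convolution (U.indicator fun _ => (1 : ℝ)) g (ContinuousLinearMap.mul ℝ ℝ) volume y =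
        ∫ t in U, g (y - t) := fun g y => by
    rw [convolution_def, ← integral_indicator hU.measurableSet]
    congr 1
    funext t
    by_cases ht : t ∈ U <;> simp [ht]
  have hG := fun y => k.hasCompactSupport.hasFDerivAt_convolution_right (ContinuousLinearMap.mul ℝ ℝ) hf hk y
  have key := isOpen_ball.is_const_of_fderiv_eq_zero (convex_ball z₀ (δ / 2)).isPreconnected
    (fun y _ => (hG y).differentiableAt.differentiableWithinAt) (fun y hy => by
      ext w
      have hs : tsupport (fun t => k (y - t)) ⊆ closedBall y r :=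
        closure_minimal (fun t ht => ball_subset_closedBall (by_contra fun hn => ht (hk0 y t hn)))
          isClosed_closedBall
      have h1 := h (fun t => k (y - t)) (hk.comp (by fun_prop))
        ((isCompact_closedBall y r).of_isClosed_subset (isClosed_tsupport _) hs)
        (hs.trans ((closedBall_subset_ball' (by linarith [mem_ball.1 hy])).trans hB)) w
      have h2 : ∀ t, fderiv ℝ (fun t => k (y - t)) t w = -fderiv ℝ k (y - t) w := fun t => by
        rw [show fderiv ℝ (fun t => k (y - t)) t = _ from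
          (((hk.differentiable one_ne_zero) (y - t)).hasFDerivAt.comp t
            ((hasFDerivAt_id t).const_sub y)).fderiv]
        simp
      simp only [h2, integral_neg, neg_eq_zero] at h1
      rw [(hG y).fderiv, convolution_precompR_apply _ hf (k.hasCompactSupport.fderiv ℝ)
        (hk.continuous_fderiv one_ne_zero), conv, h1]
      rfl) hx hx'
  rw [conv, conv, setIntegral_eq_integral_of_forall_compl_eq_zero
    (fun t ht => hk0 x t fun hn => ht (h₁ (ball_subset_ball hr1 hn))), integral_sub_left_eq_self,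
    setIntegral_eq_zero_of_forall_eq_zero
      (fun t ht => hk0 x' t fun hn => h₂ (ball_subset_ball hr2 hn) (subset_closure ht))] at key
  exact k.integral_pos.ne' key

end Crest.Agent.R241
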