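import Crest.Agent.R241.Defs

/-!
# Block J (owner helper46): definitions.  Helper prefix `meas_`.
`A v` is the differential of the chart `F = j ∘ e` at `v`, `Jm (A v) = √det g (v)`.
`BC A R p q`: the compact ball `Y` of radius `R` in the chart (`p = e`, `q = e⁻¹`).
-/

open MeasureTheory Set Filter Topology Metric
open Crest.GeometryTopology.MetricCurrent
open Crest.GeometryTopology.Submanifold (Euc metricMat relBoundary)
open scoped ENNReal NNReal InnerProductSpace

noncomputable section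

namespace Crest.Agent.R241

variable {d N : ℕ}

/-- the Gram matrix `Aᵀ A` -/
def gramM (A : Euc d →L[ℝ] Euc N) : Matrix (Fin d) (Fin d) ℝ :=
  Matrix.of fun a b => ⟪A (EuclideanSpace.single a 1), A (EuclideanSpace.single b 1)⟫_ℝ

/-- `√det (Aᵀ A)` -/
def Jm (A : Euc d →L[ℝ] Euc N) : ℝ := √(gramM A).det

theorem metricMat_eq (F : Euc d → Euc N) (v : Euc d) : metricMat F v = gramM (fderiv ℝ F v) := rfl

theorem Jm_nonneg (A : Euc d →L[ℝ] Euc N) : 0 ≤ Jm A := Real.sqrt_nonneg _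

/-- a `C¹` field of expanding linear maps -/
structure ExpF (A : Euc d → Euc d →L[ℝ] Euc N) : Prop where
  smooth : ContDiff ℝ 1 A
  expand : ∀ v w, ‖w‖ ≤ ‖A v w‖

/-- a closed ball of radius `R` in an exponential chart: `p` parametrises `Y` by the closed
Euclidean ball (and is extended radially), `q` is the inverse -/
structure BC {Y : Type} [MetricSpace Y] (A : Euc d → Euc d →L[ℝ] Euc N) (R : ℝ) (p : Euc d → Y)
    (q : Y → Euc d) : Prop where
  expF : ExpF A
  lip_p : ∃ L : ℝ≥0, LipschitzWith L p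
  lip_q : ∃ L : ℝ≥0, LipschitzWith L q
  qp : ∀ z ∈ closedBall (0 : Euc d) R, q (p z) = z
  pq : ∀ y, p (q y) = y
  q_mem : ∀ y, q y ∈ closedBall (0 : Euc d) R
  out : ∀ z, R ≤ ‖z‖ → ‖q (p z)‖ = R
  loc : ∀ v ∈ closedBall (0 : Euc d) R, ∀ ε > 0, ∃ δ > 0, ∀ z ∈ closedBall (0 : Euc d) R ∩ ball v δ,
    ∀ z' ∈ closedBall (0 : Euc d) R ∩ ball v δ,
      |dist (p z) (p z') - ‖A v (z - z')‖| ≤ ε * ‖z - z'‖

/-- the set swept out by `C` under the translations `s • w`, `0 ≤ s ≤ 1` -/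
def sweep (C : Set (Euc d)) (w : Euc d) : Set (Euc d) :=
  {x | ∃ y ∈ C, ∃ s ∈ Icc (0 : ℝ) 1, x = y + s • w}

/-- the density of `U` in the ball of radius `r` about `x` -/
def avg (U : Set (Euc d)) (r : ℝ) (x : Euc d) : ℝ :=
  volume.real (U ∩ ball x r) / volume.real (ball (0 : Euc d) r)

/-- `lam` bounds the `n`-dimensional measure of the frontier of `U` in the metric `A` -/
def Bounds {n : ℕ} (A : Euc (n + 1) → Euc (n + 1) →L[ℝ] Euc N) (R : ℝ) (U : Set (Euc (n + 1)))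
    (lam : Measure (Euc (n + 1))) : Prop :=
  ∀ ε > 0, ∃ δ > 0, ∀ x ∈ closedBall (0 : Euc (n + 1)) R, ∀ ρ ≤ δ,
    μHE[n] (A x '' (frontier U ∩ closedBall x ρ)) ≤ ENNReal.ofReal (1 + ε) * lam (closedBall x ρ)

end Crest.Agent.R241
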