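import Crest.Agent.R241.Meas.Avg

/-!
# Block J: the approximating function.  Helper prefix `mfun_`.
-/

open MeasureTheory Set Filter Topology Metric
open Crest.GeometryTopology.MetricCurrent
open Crest.GeometryTopology.Submanifold (Euc metricMat relBoundary)
open scoped ENNReal NNReal InnerProductSpace

noncomputable section

namespace Crest.Agent.R241

variable {n N : ℕ}

/-- the cut-off -/
def mfun_cut {d : ℕ} (R : ℝ) (z : Euc d) : ℝ := max 0 (min 1 (R - 1 - ‖z‖))

theorem mfun_cut_mem {d : ℕ} (R : ℝ) (z : Euc d) : mfun_cut R z ∈ Icc (0 : ℝ) 1 :=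
  ⟨le_max_left _ _, max_le zero_le_one (min_le_left _ _)⟩

theorem mfun_cut_zero {d : ℕ} {R : ℝ} {z : Euc d} (h : R - 1 ≤ ‖z‖) : mfun_cut R z = 0 :=
  max_eq_left ((min_le_right _ _).trans (by linarith))

theorem mfun_cut_one {d : ℕ} {R : ℝ} {z : Euc d} (h : ‖z‖ ≤ R - 2) : mfun_cut R z = 1 := by
  rw [mfun_cut, min_eq_left (by linarith), max_eq_right zero_le_one]

theorem mfun_cut_sub {d : ℕ} (R : ℝ) (z z' : Euc d) :
    |mfun_cut R z' - mfun_cut R z| ≤ ‖z' - z‖ := by
  have h := abs_le.1 (abs_norm_sub_norm_le z' z)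
  simp only [mfun_cut, max_def, min_def]
  rw [abs_le]
  split_ifs <;> constructor <;> linarith [h.1, h.2, norm_nonneg (z' - z)]

/-- `g = χ * avg U r` with `χ z = max 0 (min 1 (R - 1 - ‖z‖))` (1-Lipschitz),
`G z = (1+ε) lam (closedBall z r) / vol (ball 0 r) + 1[R - 2 ≤ ‖z‖] J z * avg U r z`,
`r ≤ min r₀ 1` below the `δ` of `Bounds.avg_sub` and of `ExpF.unif` (with `ε = 1`). -/
theorem Bounds.exists_fun {A : Euc (n + 1) → Euc (n + 1) →L[ℝ] Euc N} (hA : ExpF A) {R : ℝ}
    {U : Set (Euc (n + 1))} (hU : IsOpen U) {lam : Measure (Euc (n + 1))} [IsFiniteMeasure lam]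
    (h : Bounds A R U lam) {ε r₀ : ℝ} (hε : 0 < ε) (hr₀ : 0 < r₀) :
    ∃ (g G : Euc (n + 1) → ℝ) (L : ℝ≥0), LipschitzOnWith L g (closedBall 0 R) ∧
      (∀ z, R - 1 ≤ ‖z‖ → g z = 0) ∧ (∀ z, ‖z‖ ≤ R - 2 → ball z r₀ ⊆ U → g z = 1) ∧
      (∀ z, Disjoint (ball z r₀) U → g z = 0) ∧ (∀ z, 0 ≤ G z) ∧
      (∀ z ∈ ball (0 : Euc (n + 1)) R, ∀ w, Jm (A z) * |fderiv ℝ g z w| ≤ G z * ‖A z w‖) ∧
      ∫⁻ z in ball 0 R, ENNReal.ofReal (G z) ≤ ENNReal.ofReal (1 + ε) * lam univ
        + 2 * ∫⁻ z in U \ ball 0 (R - 3), ENNReal.ofReal (Jm (A z)) := by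
  obtain ⟨δ₁, hδ₁, H₁⟩ := h.avg_sub hA hε
  obtain ⟨δ₂, hδ₂, H₂⟩ := hA.unif R one_pos
  obtain ⟨r, hr, hr0, hr1, hrδ₁, hrδ₂⟩ : ∃ r > 0, r ≤ r₀ ∧ r ≤ 1 ∧ r ≤ δ₁ ∧ r ≤ δ₂ :=
    ⟨min (min r₀ 1) (min δ₁ δ₂), by positivity, by simp, by simp, by simp, by simp⟩
  replace H₁ := H₁ r ⟨hr, hrδ₁⟩
  set m := volume.real (ball (0 : Euc (n + 1)) r) with hm
  have hm0 : 0 ≤ m := measureReal_nonneg
  set u := avg U r with hu
  have hu0 : ∀ z, 0 ≤ u z := fun z => (avg_mem U r z).1
  have hu1 : ∀ z, u z ≤ 1 := fun z => (avg_mem U r z).2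
  obtain ⟨C, hC⟩ := (isCompact_closedBall (0 : Euc (n + 1)) R).exists_bound_of_continuousOn
    hA.smooth.continuous.continuousOn
  set Lu : ℝ := (1 + ε) * |C| * (lam.real univ / m) + 1 / δ₁ with hLu
  have hLu0 : 0 ≤ Lu := by positivity
  have hul : ∀ z ∈ closedBall (0 : Euc (n + 1)) R, ∀ z', |u z' - u z| ≤ Lu * ‖z' - z‖ := by
    intro z hz z'
    have h0 : 0 ≤ (1 + ε) * |C| * (lam.real univ / m) * ‖z' - z‖ := by positivity
    have h0' : 0 ≤ 1 / δ₁ * ‖z' - z‖ := by positivity
    rw [hLu, add_mul]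
    rcases le_total ‖z' - z‖ δ₁ with h1 | h1
    · have h2 := H₁ z hz (z' - z) h1
      rw [add_sub_cancel] at h2
      have h3 : ‖A z (z' - z)‖ ≤ |C| * ‖z' - z‖ :=
        ((A z).le_opNorm _).trans (by gcongr; exact (hC z hz).trans (le_abs_self C))
      have h4 : (1 + ε) * ‖A z (z' - z)‖ * (lam.real (closedBall z (r + ‖z' - z‖)) / m)
          ≤ (1 + ε) * (|C| * ‖z' - z‖) * (lam.real univ / m) := by
        have h5 : lam.real (closedBall z (r + ‖z' - z‖)) ≤ lam.real univ :=
          measureReal_mono (subset_univ _)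
        gcongr
      nlinarith [hA.one_le z, abs_nonneg (u z' - u z)]
    · have h2 : |u z' - u z| ≤ 1 := abs_le.2 ⟨by linarith [hu0 z', hu1 z], by linarith [hu0 z, hu1 z']⟩
      have h3 : 1 ≤ 1 / δ₁ * ‖z' - z‖ := by
        rw [one_div_mul_eq_div, one_le_div hδ₁]
        exact h1
      linarith
  have hprod : ∀ z z', |mfun_cut R z' * u z' - mfun_cut R z * u z|
      ≤ |u z' - u z| + u z * |mfun_cut R z' - mfun_cut R z| := by
    intro z z'
    have : mfun_cut R z' * u z' - mfun_cut R z * u z
        = mfun_cut R z' * (u z' - u z) + u z * (mfun_cut R z' - mfun_cut R z) := by ring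
    rw [this]
    refine (abs_add_le _ _).trans ?_
    rw [abs_mul, abs_mul, abs_of_nonneg (hu0 z), abs_of_nonneg (mfun_cut_mem R z').1]
    nlinarith [(mfun_cut_mem R z').2, abs_nonneg (u z' - u z)]
  set k : Euc (n + 1) → ℝ := {z | R - 2 ≤ ‖z‖}.indicator fun z => Jm (A z) * u z with hk
  have hk0 : ∀ z, 0 ≤ k z := fun z =>
    indicator_nonneg (fun z _ => mul_nonneg (Jm_nonneg _) (hu0 z)) z
  refine ⟨fun z => mfun_cut R z * u z, fun z => (1 + ε) * (lam.real (closedBall z r) / m) + k z,
    ⟨Lu + 1, by positivity⟩, ?_, fun z hz => ?_, fun z hz hzU => ?_, fun z hz => ?_, fun z => ?_,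
    fun z hz w => ?_, ?_⟩
  · refine LipschitzOnWith.of_dist_le_mul fun z' _ z hz => ?_
    rw [Real.dist_eq, dist_eq_norm]
    change _ ≤ (Lu + 1) * _
    nlinarith [hprod z z', hul z hz z', mfun_cut_sub R z z', hu0 z, hu1 z,
      abs_nonneg (mfun_cut R z' - mfun_cut R z)]
  · simp only [mfun_cut_zero hz, zero_mul]
  · simp only [mfun_cut_one hz, one_mul]
    exact avg_eq_one hr ((ball_subset_ball hr0).trans hzU)
  · simp only [hu, avg_eq_zero (hz.mono_left (ball_subset_ball hr0)), mul_zero]
  · have := hk0 z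
    positivity
  · have hkz := hk0 z
    have htw : Tendsto (fun t : ℝ => t * ‖w‖) (𝓝 0) (𝓝 0) := by
      simpa using (tendsto_id (x := 𝓝 (0 : ℝ))).mul_const ‖w‖
    refine abs_fderiv_le (c := fun t => ((1 + ε) *
      (lam.real (cthickening (t * ‖w‖) (closedBall z r)) / m) + k z) * ‖A z w‖) (Jm_nonneg _)
      (by positivity) ?_ ?_
    · have h1 := (ENNReal.tendsto_toReal (measure_ne_top lam _)).comp
        ((tendsto_measure_cthickening_of_isCompact (μ := lam) (isCompact_closedBall z r)).comp htw)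
      exact ((((h1.div_const m).const_mul (1 + ε)).add_const _).mul_const _).mono_left
        nhdsWithin_le_nhds
    · have h2 : ∀ᶠ t in 𝓝[>] (0 : ℝ), Jm (A z) * (u z * |mfun_cut R (z + t • w) - mfun_cut R z|)
          ≤ t * (k z * ‖A z w‖) := by
        by_cases hz2 : R - 2 ≤ ‖z‖
        · filter_upwards [self_mem_nhdsWithin] with t ht
          have ht : 0 < t := ht
          have h3 := mfun_cut_sub R z (z + t • w)
          rw [add_sub_cancel_left, norm_smul, Real.norm_of_nonneg ht.le] at h3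
          have h4 : k z = Jm (A z) * u z := indicator_of_mem (s := {z | R - 2 ≤ ‖z‖}) hz2 _
          rw [h4]
          calc _ ≤ Jm (A z) * (u z * (t * ‖A z w‖)) := by
                have := Jm_nonneg (A z)
                have := hu0 z
                gcongr
                exact h3.trans (mul_le_mul_of_nonneg_left (hA.expand z w) ht.le)
            _ = _ := by ring
        · have h3 : ∀ᶠ t in 𝓝 (0 : ℝ), ‖z + t • w‖ < R - 2 :=
            (Continuous.continuousAt (by fun_prop)).eventually_lt continuousAt_const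
              (by simpa using not_le.1 hz2)
          filter_upwards [h3.filter_mono nhdsWithin_le_nhds, self_mem_nhdsWithin] with t h4 ht
          have ht : 0 < t := ht
          rw [mfun_cut_one h4.le, mfun_cut_one (not_le.1 hz2).le, sub_self, abs_zero, mul_zero,
            mul_zero]
          positivity
      filter_upwards [h2, self_mem_nhdsWithin,
        (htw.eventually (ge_mem_nhds hδ₁)).filter_mono nhdsWithin_le_nhds] with t h3 ht h4
      have ht : 0 < t := ht
      have hn : ‖t • w‖ = t * ‖w‖ := by rw [norm_smul, Real.norm_of_nonneg ht.le]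
      have h5 := H₁ z (ball_subset_closedBall hz) (t • w) (hn ▸ h4)
      rw [hn, map_smul, norm_smul, Real.norm_of_nonneg ht.le] at h5
      rw [cthickening_closedBall (by positivity) hr.le, add_comm (t * ‖w‖) r]
      have h6 := mul_le_mul_of_nonneg_left (hprod z (z + t • w)) (Jm_nonneg (A z))
      nlinarith
  · have hD : MeasurableSet {z : Euc (n + 1) | R - 2 ≤ ‖z‖} :=
      (isClosed_le continuous_const continuous_norm).measurableSet
    have huc : ContinuousOn u (ball 0 R) := by
      have : LipschitzOnWith ⟨Lu, hLu0⟩ u (ball 0 R) :=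
        LipschitzOnWith.of_dist_le_mul fun z' _ z hz => by
          rw [Real.dist_eq, dist_eq_norm]
          exact hul z (ball_subset_closedBall hz) z'
      exact this.continuousOn
    have hkm : AEMeasurable k (volume.restrict (ball 0 R)) :=
      ((hA.continuous_Jm.continuousOn.mul huc).aemeasurable measurableSet_ball).indicator hD
    calc _ ≤ ∫⁻ z in ball 0 R, ENNReal.ofReal (1 + ε) *
            ENNReal.ofReal (lam.real (closedBall z r) / m) + ENNReal.ofReal (k z) := by
          refine lintegral_mono fun z => ?_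
          rw [← ENNReal.ofReal_mul (by positivity)]
          exact ENNReal.ofReal_add_le
      _ ≤ _ := by
          rw [lintegral_add_right' _ hkm.ennreal_ofReal,
            lintegral_const_mul' _ _ ENNReal.ofReal_ne_top]
          gcongr
          · exact (setLIntegral_le_lintegral _ _).trans (lintegral_lam_ball lam hr).le
          · have h1 : ∀ z, ENNReal.ofReal (k z) = {z : Euc (n + 1) | R - 2 ≤ ‖z‖}.indicator
                (fun z => ENNReal.ofReal (Jm (A z) * u z)) z := fun z => by
              by_cases hz : z ∈ {z : Euc (n + 1) | R - 2 ≤ ‖z‖}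
              · rw [hk, indicator_of_mem hz, indicator_of_mem hz]
              · rw [hk, indicator_of_notMem hz, indicator_of_notMem hz, ENNReal.ofReal_zero]
            simp only [h1]
            rw [lintegral_indicator hD, Measure.restrict_restrict hD]
            refine lintegral_mul_avg_le hU.measurableSet (hD.inter measurableSet_ball)
              measurableSet_ball.compl hA.continuous_Jm (fun _ => Jm_nonneg _) hr
              fun x hx y hy => ⟨?_, ?_⟩
            · have h2 : R - 2 ≤ ‖x‖ := hx.1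
              have h3 := norm_sub_norm_le x y
              rw [norm_sub_rev, ← dist_eq_norm] at h3
              have h4 : dist y x < r := hy
              rw [mem_compl_iff, mem_ball_zero_iff, not_lt]
              linarith
            · have := (H₂ x (ball_subset_closedBall hx.2) y
                (closedBall_subset_closedBall hrδ₂ (ball_subset_closedBall hy))).2.2.2
              linarith

end Crest.Agent.R241
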