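import Crest.Agent.R241.Meas.Defs

/-!
# Block J: linear algebra and elementary comparison lemmas.  Helper prefix `mlin_`.
Mathlib: `Analysis/InnerProductSpace/NormDet.lean` (`LinearMap.normDet`, `normDet_sq_eq_det_gram`,
`normDet_eq_abs_det`, `normDet_comp`, `euclideanHausdorffMeasure_image_eq_normDet_mul_volume`).
-/

open MeasureTheory Set Filter Topology Metric
open Crest.GeometryTopology.MetricCurrent
open Crest.GeometryTopology.Submanifold (Euc metricMat relBoundary)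
open scoped ENNReal NNReal InnerProductSpace

noncomputable section

namespace Crest.Agent.R241

variable {d N : ℕ}

theorem exists_pow_le (k : ℕ) {ε : ℝ} (hε : 0 < ε) : ∃ ε' > 0, (1 + ε' : ℝ) ^ k ≤ 1 + ε := by
  have h : ∀ᶠ t : ℝ in 𝓝 0, (1 + t) ^ k < 1 + ε :=
    ContinuousAt.eventually_lt (by fun_prop) continuousAt_const (by simpa using hε)
  obtain ⟨t, h1, h2⟩ := ((h.filter_mono nhdsWithin_le_nhds).and (self_mem_nhdsWithin (s := Ioi 0))).exists
  exact ⟨t, h2, h1.le⟩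

theorem Jm_eq_normDet (A : Euc d →L[ℝ] Euc N) : Jm A = (A : Euc d →ₗ[ℝ] Euc N).normDet := by
  have h := (A : Euc d →ₗ[ℝ] Euc N).normDet_sq_eq_det_gram (EuclideanSpace.basisFun (Fin d) ℝ)
  simp only [EuclideanSpace.basisFun_apply] at h
  exact (congrArg Real.sqrt h.symm).trans (Real.sqrt_sq (LinearMap.normDet_nonneg _))

/-- compose `A.rangeRestrict` with an isometry of the range onto `Euc d` -/
theorem exists_B {A : Euc d →L[ℝ] Euc N} (hA : ∀ w, ‖w‖ ≤ ‖A w‖) :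
    ∃ B : Euc d ≃L[ℝ] Euc d, (∀ w, ‖B w‖ = ‖A w‖) ∧ |(B : Euc d →L[ℝ] Euc d).det| = Jm A := by
  have hi : Function.Injective (A : Euc d →ₗ[ℝ] Euc N) := (injective_iff_map_eq_zero _).2 fun w hw =>
    norm_le_zero_iff.1 ((hA w).trans_eq (norm_eq_zero.2 hw))
  let e := LinearEquiv.ofInjective _ hi
  let i : (A : Euc d →ₗ[ℝ] Euc N).range ≃ₗᵢ[ℝ] Euc d :=
    ((stdOrthonormalBasis ℝ _).reindex (finCongr (e.finrank_eq.symm.trans finrank_euclideanSpace_fin))).repr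
  refine ⟨(e.trans i.toLinearEquiv).toContinuousLinearEquiv, fun w => i.norm_map _, ?_⟩
  have h := LinearMap.normDet_comp_of_finrank_eq (e : Euc d →ₗ[ℝ] _) i.toLinearIsometry.toLinearMap e.finrank_eq
  rw [LinearMap.normDet_eq_abs_det, LinearIsometry.normDet_eq_one, one_mul] at h
  exact h.trans ((LinearMap.normDet_codRestrict _).trans (Jm_eq_normDet A).symm)

theorem mlin_eig (A : Euc d →L[ℝ] Euc N) : ∃ v : Fin d → Euc d, (∀ i, ‖v i‖ = 1) ∧
    (gramM A).det = ∏ i, ‖A (v i)‖ ^ 2 ∧ ((∀ i, ‖A (v i)‖ ^ 2 = 1) → gramM A = 1) := by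
  have hH : (gramM A).IsHermitian := Matrix.isHermitian_gram ℝ _
  have h : ∀ i, hH.eigenvalues i = ‖A (hH.eigenvectorBasis i)‖ ^ 2 := fun i => by
    have e : ∑ a, hH.eigenvectorBasis i a • A (EuclideanSpace.single a 1) = A (hH.eigenvectorBasis i) := by
      simpa using congrArg A ((EuclideanSpace.basisFun (Fin d) ℝ).sum_repr (hH.eigenvectorBasis i))
    rw [hH.eigenvalues_eq, ← real_inner_self_eq_norm_sq, ← e]
    exact Matrix.star_dotProduct_gram_mulVec (𝕜 := ℝ) (fun a : Fin d => A (EuclideanSpace.single a 1)) _ _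
  refine ⟨hH.eigenvectorBasis, hH.eigenvectorBasis.orthonormal.1, by simpa [h] using hH.det_eq_prod_eigenvalues,
    fun h1 => ?_⟩
  rw [hH.spectral_theorem, show hH.eigenvalues = 1 from funext fun i => (h i).trans (h1 i)]
  simp

theorem mlin_le_one {A : Euc d →L[ℝ] Euc N} (h : ∀ w, ‖A w‖ ≤ ‖w‖) : Jm A ≤ 1 := by
  obtain ⟨v, h1, h2, -⟩ := mlin_eig A
  rw [Jm, Real.sqrt_le_one, h2]
  exact Finset.prod_le_one (fun i _ => sq_nonneg _) fun i _ =>
    pow_le_one₀ (norm_nonneg _) ((h _).trans_eq (h1 i))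

/-- a contraction maps the unit ball into itself (`Measure.addHaar_image_continuousLinearMap`) -/
theorem abs_det_le_one {D : Euc d →L[ℝ] Euc d} (h : ∀ w, ‖D w‖ ≤ ‖w‖) : |D.det| ≤ 1 :=
  ((Jm_eq_normDet D).trans (LinearMap.normDet_eq_abs_det _)).ge.trans (mlin_le_one h)

theorem Jm_mul_abs_det_le {A : Euc d →L[ℝ] Euc N} (hA : ∀ w, ‖w‖ ≤ ‖A w‖) {D : Euc d →L[ℝ] Euc d}
    (h : ∀ w, ‖A (D w)‖ ≤ ‖w‖) : Jm A * |D.det| ≤ 1 := by
  have h1 := mlin_le_one (A := A ∘L D) h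
  rwa [Jm_eq_normDet, ContinuousLinearMap.toLinearMap_comp, LinearMap.normDet_comp_of_finrank_eq _ _ rfl,
    LinearMap.normDet_eq_abs_det, ← Jm_eq_normDet] at h1

theorem one_le_Jm {A : Euc d →L[ℝ] Euc N} (hA : ∀ w, ‖w‖ ≤ ‖A w‖) : 1 ≤ Jm A := by
  obtain ⟨v, h1, h2, -⟩ := mlin_eig A
  rw [Jm, Real.one_le_sqrt, h2]
  exact Finset.one_le_prod fun i _ => one_le_pow₀ ((h1 i).ge.trans (hA _))

/-- the eigenvalues of the Gram matrix are `≥ 1` with product `1` -/
theorem gramM_eq_one {A : Euc d →L[ℝ] Euc N} (hA : ∀ w, ‖w‖ ≤ ‖A w‖) (h1 : Jm A = 1) :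
    gramM A = 1 := by
  obtain ⟨v, h2, h3, h4⟩ := mlin_eig A
  rw [Jm, Real.sqrt_eq_one, h3] at h1
  have h5 : ∀ i, 1 ≤ ‖A (v i)‖ ^ 2 := fun i => one_le_pow₀ ((h2 i).ge.trans (hA _))
  refine h4 fun i => le_antisymm ?_ (h5 i)
  rw [← h1, ← Finset.mul_prod_erase _ _ (Finset.mem_univ i)]
  exact le_mul_of_one_le_right (sq_nonneg _) (Finset.one_le_prod fun j _ => h5 j)

theorem muHE_linear (A : Euc d →L[ℝ] Euc N) (s : Set (Euc d)) :
    μHE[d] (A '' s) = ENNReal.ofReal (Jm A) * volume s := by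
  have := (A : Euc d →ₗ[ℝ] Euc N).euclideanHausdorffMeasure_image_eq_normDet_mul_volume s
  rw [finrank_euclideanSpace_fin] at this
  rw [Jm_eq_normDet]
  exact this

/-- `f = h ∘ g` on `s` with `h = f ∘ invFunOn g s` Lipschitz on `g '' s`
(`LipschitzOnWith.hausdorffMeasure_image_le`) -/
theorem muHE_image_le {α : Type*} {N' : ℕ} {f : α → Euc N} {g : α → Euc N'} {s : Set α} {L : ℝ}
    (hL : 0 ≤ L) (h : ∀ z ∈ s, ∀ z' ∈ s, ‖f z - f z'‖ ≤ L * ‖g z - g z'‖) (k : ℕ) :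
    μHE[k] (f '' s) ≤ ENNReal.ofReal (L ^ k) * μHE[k] (g '' s) := by
  rcases s.eq_empty_or_nonempty with rfl | ⟨z₀, hz₀⟩
  · simp
  have : Nonempty α := ⟨z₀⟩
  have h1 : ∀ y ∈ g '' s, Function.invFunOn g s y ∈ s ∧ g (Function.invFunOn g s y) = y :=
    fun y hy => Function.invFunOn_pos hy
  have h2 : LipschitzOnWith L.toNNReal (f ∘ Function.invFunOn g s) (g '' s) :=
    LipschitzOnWith.of_dist_le_mul fun y hy y' hy' => by
      have := h _ (h1 y hy).1 _ (h1 y' hy').1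
      rw [(h1 y hy).2, (h1 y' hy').2] at this
      rwa [dist_eq_norm, dist_eq_norm, Real.coe_toNNReal _ hL]
  have h3 : f '' s ⊆ (f ∘ Function.invFunOn g s) '' (g '' s) := by
    rintro _ ⟨z, hz, rfl⟩
    have h4 := h1 _ (mem_image_of_mem g hz)
    have h5 := h _ h4.1 _ hz
    rw [h4.2, sub_self, norm_zero, mul_zero] at h5
    exact ⟨_, mem_image_of_mem g hz, sub_eq_zero.1 (norm_le_zero_iff.1 h5)⟩
  have h6 := (measure_mono h3).trans (h2.hausdorffMeasure_image_le (Nat.cast_nonneg k))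
  simp only [Measure.euclideanHausdorffMeasure_def, Measure.smul_apply, ENNReal.smul_def, smul_eq_mul]
  rw [mul_left_comm, ENNReal.ofReal_pow hL]
  rw [ENNReal.rpow_natCast] at h6
  exact mul_le_mul_right h6 _

namespace ExpF

variable {A : Euc d → Euc d →L[ℝ] Euc N}

theorem one_le (h : ExpF A) (v : Euc d) : 1 ≤ Jm (A v) := one_le_Jm (h.expand v)

theorem contDiff_Jm (h : ExpF A) : ContDiff ℝ 1 fun v => Jm (A v) := by
  have hs := h.smooth
  refine ContDiff.sqrt ?_ fun v hv => ?_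
  · simp only [Matrix.det_apply', gramM, Matrix.of_apply]
    refine ContDiff.sum fun σ _ => contDiff_const.mul (contDiff_prod fun i _ => ?_)
    exact (hs.clm_apply contDiff_const).inner ℝ (hs.clm_apply contDiff_const)
  · have := h.one_le v
    rw [Jm, hv, Real.sqrt_zero] at this
    exact absurd this (by norm_num)

theorem continuous_Jm (h : ExpF A) : Continuous fun v => Jm (A v) := h.contDiff_Jm.continuous

/-- uniform continuity on `closedBall 0 (R + 1)` -/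
theorem unif (h : ExpF A) (R : ℝ) {ε : ℝ} (hε : 0 < ε) :
    ∃ δ > 0, ∀ x ∈ closedBall (0 : Euc d) R, ∀ z ∈ closedBall x δ,
      ‖A z - A x‖ ≤ ε ∧ (∀ w, ‖A z w‖ ≤ (1 + ε) * ‖A x w‖) ∧ Jm (A z) ≤ (1 + ε) * Jm (A x) ∧
        Jm (A x) ≤ (1 + ε) * Jm (A z) := by
  have h1 := (isCompact_closedBall (0 : Euc d) (R + 1)).uniformContinuousOn_of_continuous
    (h.smooth.continuous.prodMk h.continuous_Jm).continuousOn
  obtain ⟨δ, hδ, h2⟩ := Metric.uniformContinuousOn_iff_le.1 h1 ε hε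
  refine ⟨min δ 1, lt_min hδ one_pos, fun x hx z hz => ?_⟩
  have h3 := h2 z (closedBall_subset_closedBall' (by
      linarith [mem_closedBall.1 hx, min_le_right δ 1]) hz) x
    (closedBall_subset_closedBall (by linarith) hx) ((mem_closedBall.1 hz).trans (min_le_left _ _))
  rw [Prod.dist_eq, max_le_iff, dist_eq_norm, Real.dist_eq, abs_le] at h3
  refine ⟨h3.1, fun w => ?_, by nlinarith [h3.2.2, h.one_le x], by nlinarith [h3.2.1, h.one_le z]⟩
  have h4 := (A z - A x).le_of_opNorm_le h3.1 w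
  have h5 := norm_sub_norm_le (A z w) (A x w)
  rw [sub_apply] at h4
  nlinarith [h.expand x w]

/-- mean value inequality for `F - A x` on the convex set `closedBall x δ` -/
theorem bilip (h : ExpF A) {F : Euc d → Euc N} (hF : ∀ v, HasFDerivAt F (A v) v) (R : ℝ) {ε : ℝ}
    (hε : 0 < ε) : ∃ δ > 0, ∀ x ∈ closedBall (0 : Euc d) R, ∀ z ∈ closedBall x δ,
      ∀ z' ∈ closedBall x δ, ‖A x z - A x z'‖ ≤ (1 + ε) * ‖F z - F z'‖ ∧
        ‖F z - F z'‖ ≤ (1 + ε) * ‖A x z - A x z'‖ := by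
  obtain ⟨δ, hδ, h1⟩ := h.unif R (show 0 < ε / (1 + ε) by positivity)
  refine ⟨δ, hδ, fun x hx z hz z' hz' => ?_⟩
  have h2 := (convex_closedBall x δ).norm_image_sub_le_of_norm_hasFDerivWithin_le'
    (fun y _ => (hF y).hasFDerivWithinAt) (fun y hy => (h1 x hx y hy).1) hz' hz
  have h3 := h.expand x (z - z')
  rw [map_sub] at h2 h3
  have h4 := abs_le.1 ((abs_norm_sub_norm_le _ _).trans h2)
  have h5 : ε / (1 + ε) * ‖z - z'‖ ≤ ε / (1 + ε) * ‖A x z - A x z'‖ := by gcongr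
  have h6 : ε / (1 + ε) * (1 + ε) = ε := div_mul_cancel₀ _ (by positivity)
  have h7 : ε / (1 + ε) ≤ ε := div_le_self hε.le (by linarith)
  have h8 := norm_nonneg (A x z - A x z')
  constructor
  · have h9 : (1 - ε / (1 + ε)) * ‖A x z - A x z'‖ ≤ ‖F z - F z'‖ := by linarith [h4.1]
    have := mul_le_mul_of_nonneg_left h9 (show 0 ≤ 1 + ε by positivity)
    nlinarith
  · nlinarith [h4.2]

end ExpF

end Crest.Agent.R241
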