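import Crest.Agent.R241.Meas.Lin

/-!
# Block J: the volume swept out by a translated set.  Helper prefix `msw_`.
-/

open MeasureTheory Set Filter Topology Metric
open Crest.GeometryTopology.MetricCurrent
open Crest.GeometryTopology.Submanifold (Euc metricMat relBoundary)
open scoped ENNReal NNReal InnerProductSpace

noncomputable section

namespace Crest.Agent.R241

variable {n N : ℕ}

theorem msw_split {w : Euc (n + 1)} (hw : w ≠ 0) :
    ∃ (H : Submodule ℝ (Euc (n + 1))) (a : Euc (n + 1) →L[ℝ] ℝ) (P : Euc (n + 1) →L[ℝ] H),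
      Module.finrank ℝ H = n ∧ a w = ‖w‖ ∧ P w = 0 ∧ LipschitzWith 1 P ∧
      MeasurePreserving (fun x => (a x, P x)) volume (volume.prod volume) := by
  have hn : ‖w‖ ≠ 0 := norm_ne_zero_iff.2 hw
  set u := ‖w‖⁻¹ • w with hudef
  have hu : ‖u‖ = 1 := by rw [hudef, norm_smul, norm_inv, norm_norm, inv_mul_cancel₀ hn]
  have hwu : ‖w‖ • u = w := by rw [hudef, smul_smul, mul_inv_cancel₀ hn, one_smul]
  have hmem : w ∈ (ℝ ∙ u) := Submodule.mem_span_singleton.2 ⟨_, hwu⟩
  set L := LinearIsometryEquiv.toSpanUnitSingleton (𝕜 := ℝ) u hu with hL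
  refine ⟨(ℝ ∙ u)ᗮ, (L.symm.toContinuousLinearEquiv : (ℝ ∙ u) →L[ℝ] ℝ).comp
    (ℝ ∙ u).orthogonalProjectionOnto, (ℝ ∙ u)ᗮ.orthogonalProjectionOnto, ?_, ?_, ?_, ?_, ?_⟩
  · have h0 : u ≠ 0 := by
      rintro h
      simp [h] at hu
    have h := (ℝ ∙ u).finrank_add_finrank_orthogonal
    rw [finrank_span_singleton h0, finrank_euclideanSpace_fin] at h
    omega
  · change L.symm ((ℝ ∙ u).orthogonalProjectionOnto w) = ‖w‖
    rw [LinearIsometryEquiv.symm_apply_eq]
    ext1
    rw [hL, LinearIsometryEquiv.toSpanUnitSingleton_apply]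
    change (ℝ ∙ u).starProjection w = ‖w‖ • u
    rw [hwu, Submodule.starProjection_eq_self_iff]
    exact hmem
  · exact Submodule.orthogonalProjectionOnto_orthogonal_apply_eq_zero hmem
  · exact Submodule.lipschitzWith_orthogonalProjectionOnto _
  · have h1 := (ℝ ∙ u).measurePreserving_measurableEquivProd (0 : Euc (n + 1))
    rw [InnerProductSpace.euclideanHausdorffMeasure_eq_volume] at h1
    have h2 := (L.symm.measurePreserving.prod
      (MeasurePreserving.id (volume : Measure (ℝ ∙ u)ᗮ))).comp h1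
    have h3 : (fun x => (((L.symm.toContinuousLinearEquiv : (ℝ ∙ u) →L[ℝ] ℝ).comp
        (ℝ ∙ u).orthogonalProjectionOnto) x, (ℝ ∙ u)ᗮ.orthogonalProjectionOnto x))
        = Prod.map L.symm id ∘ (ℝ ∙ u).measurableEquivProd (0 : Euc (n + 1)) := by
      ext1 x
      simp
    rw [h3]
    exact h2

/-- Let `u = w / ‖w‖`; split `Euc (n+1) = ℝ × (ℝ ∙ u)ᗮ` (measure preserving, cf. `R230/Spl.lean`
`mp_spl`, or Mathlib `Submodule.measurePreserving_measurableEquivProd`).  Cut `C` into the slabs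
`C_i = C ∩ {⟪x, u⟫ ∈ Ico (i δ) ((i+1) δ)}`, `i : ℤ`; `sweep C_i w` lies in
`Icc (i δ) ((i+1) δ + ‖w‖) ×ˢ proj C_i`, of volume `≤ (‖w‖ + δ) vol (proj C_i)`
(`Measure.prod_prod`), `vol (proj C_i) = μHE[n] (proj C_i) ≤ μHE[n] C_i` (1-Lipschitz), and
`∑ μHE[n] C_i ≤ μHE[n] C` (restrict the measure to `toMeasurable C`, or
`measure_iUnion` for `μ.restrict`, `tsum_meas_le_meas_iUnion_of_disjoint`).  Let `δ → 0`. -/
theorem volume_sweep_le (C : Set (Euc (n + 1))) {w : Euc (n + 1)} (hw : w ≠ 0) :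
    volume (sweep C w) ≤ ‖w‖ₑ * μHE[n] C := by
  obtain ⟨H, a, P, hH, ha, hP0, hP, hmp⟩ := msw_split hw
  have hproj : ∀ s : Set (Euc (n + 1)), volume (P '' s) ≤ μHE[n] s := by
    intro s
    rw [← InnerProductSpace.euclideanHausdorffMeasure_eq_volume, hH,
      Measure.euclideanHausdorffMeasure_def, Measure.euclideanHausdorffMeasure_def,
      Measure.smul_apply, Measure.smul_apply]
    have := hP.hausdorffMeasure_image_le (Nat.cast_nonneg n) s
    rw [ENNReal.coe_one, ENNReal.one_rpow, one_mul] at this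
    simp only [ENNReal.smul_def, smul_eq_mul]
    gcongr
  have key : ∀ δ > 0, volume (sweep C w) ≤ ENNReal.ofReal (δ + ‖w‖) * μHE[n] C := by
    intro δ hδ
    set S : ℤ → Set (Euc (n + 1)) := fun i => a ⁻¹' Ico (i • δ) ((i + 1) • δ) with hS
    have hSm : ∀ i, MeasurableSet (S i) := fun i => a.continuous.measurable measurableSet_Ico
    have hSd : Pairwise (Function.onFun Disjoint S) := fun i j hij =>
      (pairwise_disjoint_Ico_zsmul δ hij).preimage a
    have hSU : ⋃ i, S i = univ := by rw [hS, ← preimage_iUnion, iUnion_Ico_zsmul hδ, preimage_univ]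
    have hsub : sweep C w ⊆ ⋃ i : ℤ, (fun x => (a x, P x)) ⁻¹'
        (Icc (i • δ) ((i + 1) • δ + ‖w‖) ×ˢ (P '' (S i ∩ C))) := by
      rintro _ ⟨y, hy, s, hs, rfl⟩
      obtain ⟨i, hi⟩ := mem_iUnion.1 (hSU ▸ mem_univ y)
      refine mem_iUnion.2 ⟨i, ?_, y, ⟨hi, hy⟩, by simp [hP0]⟩
      have h1 := mul_nonneg hs.1 (norm_nonneg w)
      have h2 := mul_le_of_le_one_left (norm_nonneg w) hs.2
      simp only [map_add, map_smul, ha, smul_eq_mul]
      exact ⟨by linarith [hi.1], by linarith [hi.2]⟩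
    calc _ ≤ _ := (measure_mono hsub).trans (measure_iUnion_le _)
      _ ≤ ∑' i, ENNReal.ofReal (δ + ‖w‖) * (μHE[n] : Measure (Euc (n + 1))).restrict C (S i) := by
          refine ENNReal.tsum_le_tsum fun i => ?_
          refine (Measure.le_map_apply hmp.measurable.aemeasurable _).trans ?_
          rw [hmp.map_eq, Measure.prod_prod, Real.volume_Icc, Measure.restrict_apply (hSm i),
            add_smul, one_smul]
          gcongr
          · linarith
          · exact hproj _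
      _ = _ := by
          rw [ENNReal.tsum_mul_left, ← measure_iUnion hSd hSm, hSU, Measure.restrict_apply_univ]
  have hlim : Tendsto (fun δ : ℝ => ENNReal.ofReal (δ + ‖w‖) * μHE[n] C) (𝓝[>] 0)
      (𝓝 (ENNReal.ofReal (0 + ‖w‖) * μHE[n] C)) := by
    refine ENNReal.Tendsto.mul_const (ENNReal.tendsto_ofReal
      ((tendsto_id.add_const _).mono_left nhdsWithin_le_nhds)) (Or.inl ?_)
    simpa using hw
  rw [zero_add, ofReal_norm] at hlim
  exact ge_of_tendsto hlim (eventually_mem_nhdsWithin.mono key)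

/-- apply `volume_sweep_le` to `B '' C`, `B w` (`exists_B`) -/
theorem Jm_sweep_le {A : Euc (n + 1) →L[ℝ] Euc N} (hA : ∀ w, ‖w‖ ≤ ‖A w‖) (C : Set (Euc (n + 1)))
    {w : Euc (n + 1)} (hw : w ≠ 0) :
    ENNReal.ofReal (Jm A) * volume (sweep C w) ≤ ‖A w‖ₑ * μHE[n] (A '' C) := by
  obtain ⟨B, hB, hdet⟩ := exists_B hA
  have h1 : B '' sweep C w = sweep (B '' C) (B w) := by
    ext x
    constructor
    · rintro ⟨_, ⟨y, hy, s, hs, rfl⟩, rfl⟩
      exact ⟨B y, ⟨y, hy, rfl⟩, s, hs, by simp⟩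
    · rintro ⟨_, ⟨y, hy, rfl⟩, s, hs, rfl⟩
      exact ⟨_, ⟨y, hy, s, hs, rfl⟩, by simp⟩
  have h2 := volume_sweep_le (B '' C) (w := B w) (by simpa using hw)
  have h3 := muHE_image_le (f := B) (g := A) (s := C) zero_le_one
    (fun z _ z' _ => by rw [← map_sub, ← map_sub, hB, one_mul]) n
  rw [one_pow, ENNReal.ofReal_one, one_mul] at h3
  rw [← h1, Measure.addHaar_image_continuousLinearEquiv, ← ofReal_norm, hB, ofReal_norm] at h2
  rw [← hdet]
  exact h2.trans (by gcongr)

end Crest.Agent.R241
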