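import Crest.Agent.R241.Meas.Area
import Crest.Agent.R241.Meas.BC

/-!
# Block J: the topological end of the rigidity argument.  Helper prefix `mtop_`.
-/

open MeasureTheory Set Filter Topology Metric
open Crest.GeometryTopology.MetricCurrent
open Crest.GeometryTopology.Submanifold (Euc metricMat relBoundary)
open scoped ENNReal NNReal InnerProductSpace

noncomputable section

namespace Crest.Agent.R241

variable {d n N : ℕ} {σ : ℝ} {S : Set (Euc N)} {X : Type} [MetricSpace X] {j : X → Euc N} {x₀ : X}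

theorem Chart.muHE' {e : Euc d ≃ₜ X} (G : Geo σ d S X j) (h : Chart j x₀ e) {s : Set (Euc d)}
    (hs : MeasurableSet s) :
    μHE[d] ((j ∘ e) '' s) = ∫⁻ v in s, ENNReal.ofReal (Jm (fderiv ℝ (j ∘ e) v)) :=
  h.expF.muHE h.hasFDerivAt (G.emb.injective.comp e.injective) hs

theorem mtop_ext (hn : n ≠ 0) {ρ : ℝ} (hρ : 0 < ρ) : IsPreconnected {v : Euc (n + 1) | ρ < ‖v‖} := by
  have h1 : 1 < Module.rank ℝ (Euc (n + 1)) := by
    rw [← Module.finrank_eq_rank, finrank_euclideanSpace_fin]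
    norm_cast
    omega
  have h2 := ((isPreconnected_Ioi (a := ρ)).prod (isPreconnected_sphere h1 0 1)).image
    (fun p : ℝ × Euc (n + 1) => p.1 • p.2) (by fun_prop)
  convert h2 using 1
  ext v
  constructor
  · intro (hv : ρ < ‖v‖)
    have h0 : ‖v‖ ≠ 0 := (hρ.trans hv).ne'
    exact ⟨(‖v‖, ‖v‖⁻¹ • v), ⟨hv, by simp [norm_smul, h0]⟩, smul_inv_smul₀ h0 v⟩
  · rintro ⟨⟨t, w⟩, ⟨ht : ρ < t, hw⟩, rfl⟩
    simpa [norm_smul, mem_sphere_zero_iff_norm.1 hw, abs_of_pos (hρ.trans ht)] using ht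

/-- Use a second chart `e₁` at `x₁`: `ball x₁ ρ = e₁ '' ball 0 ρ` and `{ρ < dist}` are connected
(`n + 1 ≥ 2`; e.g. the image of `sphere 0 1 ×ˢ Ioi ρ`, `isConnected_sphere`), the latter is not
contained in the compact set `closure U`; the sphere is null (`Chart.muHE'` for both charts,
`addHaar_sphere`, `ExpF.one_le`).  So `e ⁻¹' ball ⊆ closure U` and `U ⊆ e ⁻¹' closedBall`. -/
theorem Chart.symmDiff_null {e : Euc (n + 1) ≃ₜ X} (hn : n ≠ 0) (G : Geo σ (n + 1) S X j)
    (h : Chart j x₀ e) {U : Set (Euc (n + 1))} (hU : IsOpen U) (hb : Bornology.IsBounded U)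
    (hne : U.Nonempty) (hfr : volume (frontier U) = 0) (x₁ : X) {ρ : ℝ} (hρ : 0 < ρ)
    (hO : {z | dist (e z) x₁ ≠ ρ} ⊆ interior (closure U) ∪ (closure U)ᶜ) :
    μHE[n + 1] ((j ∘ e) '' symmDiff U (e ⁻¹' ball x₁ ρ)) = 0 := by
  obtain ⟨e₁, h₁⟩ := G.chart x₁
  set T := e₁.trans e.symm with hT
  have hd : ∀ v, dist (e (T v)) x₁ = ‖v‖ := fun v => by simp [hT, h₁.dist_eq]
  have hp : ∀ C : Set (Euc (n + 1)), IsPreconnected C → (∀ v ∈ C, ‖v‖ ≠ ρ) →
      C ⊆ T ⁻¹' closure U ∨ C ⊆ T ⁻¹' (closure U)ᶜ := fun C hC h0 =>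
    (IsPreconnected.subset_or_subset (isOpen_interior.preimage T.continuous)
      (isClosed_closure.isOpen_compl.preimage T.continuous)
      ((disjoint_compl_right.mono_left interior_subset).preimage T)
      (fun v hv => hO (show dist (e (T v)) x₁ ≠ ρ from hd v ▸ h0 v hv)) hC).imp_left
      fun h1 => h1.trans (preimage_mono interior_subset)
  have h1 : ∀ v, T v ∈ U → ‖v‖ ≤ ρ := by
    rcases hp _ (mtop_ext hn hρ) fun v hv => ne_of_gt hv with h1 | h1
    · obtain ⟨R, hR⟩ := ((T.isCompact_preimage.2 hb.isCompact_closure).isBounded.subset h1).exists_norm_le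
      obtain ⟨v, hv⟩ := NormedSpace.exists_lt_norm ℝ (Euc (n + 1)) (max R ρ)
      exact absurd (hR v ((le_max_right _ _).trans_lt hv)) (not_le.2 ((le_max_left _ _).trans_lt hv))
    · exact fun v hv => not_lt.1 fun h2 => h1 h2 (subset_closure hv)
  have h2 : ball 0 ρ ⊆ T ⁻¹' closure U := by
    refine (hp _ (convex_ball 0 ρ).isPreconnected fun v hv => (mem_ball_zero_iff.1 hv).ne).resolve_right
      fun h2 => ?_
    refine ((hU.preimage T.continuous).measure_pos volume (hne.preimage T.surjective)).ne'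
      (measure_mono_null (fun v hv => ?_) (Measure.addHaar_sphere volume 0 ρ))
    exact mem_sphere_zero_iff_norm.2 ((h1 v hv).eq_of_not_lt fun h3 =>
      h2 (mem_ball_zero_iff.2 h3) (subset_closure hv))
  refine measure_mono_null (t := (j ∘ e₁) '' sphere 0 ρ ∪ (j ∘ e) '' frontier U) ?_ (measure_union_null ?_ ?_)
  · rintro _ ⟨z, hz, rfl⟩
    obtain ⟨v, rfl⟩ := T.surjective z
    rcases hz with ⟨h3, h4⟩ | ⟨h3, h4⟩
    · refine Or.inl ⟨v, mem_sphere_zero_iff_norm.2 ((h1 v h3).eq_of_not_lt fun h5 => h4 ?_), by simp [hT]⟩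
      exact show dist (e (T v)) x₁ < ρ from hd v ▸ h5
    · refine Or.inr ⟨_, ⟨h2 (mem_ball_zero_iff.2 ?_), fun h5 => h4 (interior_subset h5)⟩, rfl⟩
      exact hd v ▸ show dist (e (T v)) x₁ < ρ from h3
  · rw [h₁.muHE' G isClosed_sphere.measurableSet, setLIntegral_measure_zero _ _ (Measure.addHaar_sphere _ _ _)]
  · rw [h.muHE' G isClosed_frontier.measurableSet, setLIntegral_measure_zero _ _ hfr]

end Crest.Agent.R241
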